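import Vale.Agent.P233.H339.CY1
import Vale.Agent.P233.H183.Unit
import Vale.Agent.P233.N2.RA.IfHK

/-!
# The hypotheses of the Cheeger–Yau argument for `g_p = d_p²/2` in a space of Theorem N
-/

set_option linter.all false

open MeasureTheory Filter Topology Set
open scoped ENNReal NNReal InnerProductSpace

universe u

namespace Vale.Agent.P233.N2

namespace H339

open Vale.Agent.P233.H339

open RA

variable {M : Type u} [MetricSpace M] {K δ s : ℝ} {θ : M → ℝ} {n : ℕ}

theorem ww_eq (δ : ℝ) (p x : M) : ww δ p x = min (gg p x) δ - δ := rfl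

theorem gg_nonneg (p x : M) : 0 ≤ gg p x := by unfold gg; positivity

theorem gg_comm (p x : M) : gg p x = gg x p := by unfold gg; rw [dist_comm]

theorem continuous_gg (p : M) : Continuous (gg p) := by unfold gg; fun_prop

theorem gg_lt_iff (hδ : 0 ≤ δ) (p x : M) : gg p x < δ ↔ dist x p < √(2 * δ) := by
  rw [Real.lt_sqrt dist_nonneg]
  unfold gg
  constructor <;> intro h <;> linarith

theorem ww_lip (hδ : 0 < δ) (p : M) : LipschitzWith (Real.toNNReal √(2 * δ)) (ww δ p) := by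
  set ρ : ℝ := √(2 * δ) with hρ
  have hρ0 : 0 ≤ ρ := Real.sqrt_nonneg _
  have hρ2 : ρ ^ 2 = 2 * δ := Real.sq_sqrt (by linarith)
  have key : ∀ a : ℝ, 0 ≤ a → min (a ^ 2 / 2) δ = (min a ρ) ^ 2 / 2 := by
    intro a ha
    rcases le_total a ρ with h | h
    · rw [min_eq_left h, min_eq_left]
      have := pow_le_pow_left₀ ha h 2
      linarith
    · rw [min_eq_right h, min_eq_right]
      · linarith
      · have := pow_le_pow_left₀ hρ0 h 2
        linarith
  refine LipschitzWith.of_dist_le_mul fun x y => ?_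
  rw [Real.coe_toNNReal _ hρ0, Real.dist_eq, ww_eq, ww_eq]
  unfold gg
  rw [key _ dist_nonneg, key _ dist_nonneg]
  have h1 : |min (dist x p) ρ - min (dist y p) ρ| ≤ dist x y :=
    (abs_min_sub_min_le_max _ _ _ _).trans (by
      rw [sub_self, abs_zero, max_eq_left (abs_nonneg _)]
      exact abs_dist_sub_le _ _ _)
  have h2 : 0 ≤ min (dist x p) ρ := le_min dist_nonneg hρ0
  have h3 : 0 ≤ min (dist y p) ρ := le_min dist_nonneg hρ0
  have h4 : min (dist x p) ρ ≤ ρ := min_le_right _ _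
  have h5 : min (dist y p) ρ ≤ ρ := min_le_right _ _
  have e : min (dist x p) ρ ^ 2 / 2 - δ - (min (dist y p) ρ ^ 2 / 2 - δ)
      = (min (dist x p) ρ + min (dist y p) ρ) / 2 * (min (dist x p) ρ - min (dist y p) ρ) := by ring
  rw [e, abs_mul, abs_of_nonneg (by positivity)]
  exact mul_le_mul (by linarith) h1 (abs_nonneg _) hρ0

theorem ww_zero {p x : M} (h : √(2 * δ) ≤ dist x p) : ww δ p x = 0 := by
  have h1 : δ ≤ gg p x := by
    rcases le_total 0 δ with h0 | h0
    · by_contra h2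
      rw [not_le, gg_lt_iff h0] at h2
      linarith
    · exact h0.trans (gg_nonneg p x)
  rw [ww_eq, min_eq_right h1, sub_self]

variable [MeasurableSpace M] [BorelSpace M] {m : Measure M}

theorem ww_mem (hfin : ∀ (x : M) (r : ℝ), m (Metric.ball x r) < ∞) (hδ : 0 < δ) (p : M) :
    cl m (ww δ p) ∈ (sob m).W :=
  H183.cl_mem_W hfin (ww_lip hδ p) (x₀ := p) (R := √(2 * δ)) (fun x hx => ww_zero (by rwa [dist_comm] at hx))

theorem ww_ae (hδ : 0 < δ) (p : M) : ∀ᵐ x ∂m, cl m (ww δ p) x = min (gg p x) δ - δ :=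
  H183.cl_cont (ww_lip hδ p).continuous

theorem ww_grad [SecondCountableTopology M] (h : NSp m n K θ) (hδ : 0 < δ) (p : M) :
    ∀ᵐ x ∂m, gg p x < δ → 2 * gg p x ≤ (sob m).Γ (cl m (ww δ p)) (cl m (ww δ p)) x := by
  have hW := ww_mem h.fin hδ p
  filter_upwards [h.ww_slope p δ hδ, sob_Γ_self_ae hW, slope_ae hW] with x h1 h2 h3 hx
  rw [h2, ← h3]
  exact h1 hx

/-- (LC) for all bounded nonnegative Sobolev functions -/
theorem ww_lap [SecondCountableTopology M] (h : NSp m n K θ) (hδ : 0 < δ) (p : M)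
    {φ : M →ₘ[m] ℝ} (hφ : φ ∈ (sob m).A) (h0 : 0 ≤ φ) :
    -I ((sob m).Γ (cl m (ww δ p)) φ) ≤ ∫ x in {x | gg p x < δ}, (n - 2 * K / 3 * gg p x) * φ x ∂m := by
  have hC := h.isDir
  set w := cl m (ww δ p) with hw
  have hW : w ∈ (sob m).W := ww_mem h.fin hδ p
  have hwe := ww_ae (m := m) hδ p
  have hD : MeasurableSet {x | gg p x < δ} := (isOpen_lt (continuous_gg p) continuous_const).measurableSet
  have hDfin : m {x | gg p x < δ} < ∞ := by
    refine lt_of_le_of_lt (measure_mono fun x hx => ?_) (h.fin p √(2 * δ))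
    exact (gg_lt_iff hδ.le p x).1 hx
  have hwb : ∀ᵐ x ∂m, |w x| ≤ δ := by
    filter_upwards [hwe] with x hx
    rw [hx, abs_le]
    have h1 : 0 ≤ min (gg p x) δ := le_min (gg_nonneg p x) hδ.le
    have h2 : min (gg p x) δ ≤ δ := min_le_right _ _
    constructor <;> linarith
  have hwA : w ∈ (sob m).A := ⟨hW, mem_top_iff.2 ⟨δ, hwb⟩⟩
  have ex := fun k : ℕ => exists_exp hC hW hwb ((k : ℝ) + 1)
  choose e heA he heΓ using ex
  have hφ2 := hC.memLp φ hφ.1
  -- the functions `ψ k = φ (1 - exp ((k+1) w))`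
  set ψ : ℕ → M →ₘ[m] ℝ := fun k => -(φ * e k) with hψ
  have hψA : ∀ k, ψ k ∈ (sob m).A := fun k => by
    have := hC.A_smul (-1) (hC.mul_mem_A hφ (heA k))
    simpa [hψ] using this
  have hψe : ∀ k, ∀ᵐ x ∂m, ψ k x = (1 - Real.exp (((k : ℝ) + 1) * w x)) * φ x := by
    intro k
    filter_upwards [neg_ae (φ * e k), mul_ae φ (e k), he k] with x a1 a2 a3
    rw [hψ]; simp only; rw [a1, a2, a3]; ring
  have hη : ∀ k : ℕ, ∀ᵐ x ∂m, 0 ≤ 1 - Real.exp (((k : ℝ) + 1) * w x) ∧
      1 - Real.exp (((k : ℝ) + 1) * w x) ≤ 1 := by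
    intro k
    filter_upwards [hwe] with x hx
    have h1 : w x ≤ 0 := by rw [hx]; linarith [min_le_right (gg p x) δ]
    constructor
    · rw [sub_nonneg, Real.exp_le_one_iff]
      exact mul_nonpos_of_nonneg_of_nonpos (by positivity) h1
    · linarith [Real.exp_pos (((k : ℝ) + 1) * w x)]
  have hψ0 : ∀ k, 0 ≤ ψ k := by
    intro k
    rw [nonneg_iff_ae] at h0 ⊢
    filter_upwards [h0, hψe k, hη k] with x a1 a2 a3
    rw [a2]; exact mul_nonneg a3.1 a1
  have hψz : ∀ k, ∀ᵐ x ∂m, δ ≤ gg p x → ψ k x = 0 := by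
    intro k
    filter_upwards [hψe k, hwe] with x a1 a2 a3
    rw [a1, a2, min_eq_right a3, sub_self, mul_zero, Real.exp_zero, sub_self, zero_mul]
  have hlc := fun k => h.lc p δ hδ (ψ k) (hψA k).1 (hψ0 k) (hψz k)
  have hΓ : ∀ k, ∀ᵐ x ∂m, (sob m).Γ w (ψ k) x
      ≤ (1 - Real.exp (((k : ℝ) + 1) * w x)) * (sob m).Γ w φ x := by
    intro k
    have e1 : (sob m).Γ w (ψ k) = -(φ * (sob m).Γ w (e k) + e k * (sob m).Γ w φ) := by
      rw [hψ]
      simp only
      rw [hC.Γ_neg_right hW (hC.mul_mem_A hφ (heA k)).1, hC.Γ_mul_right hφ (heA k) hW]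
    rw [e1, hC.symm w hW (e k) (heA k).1]
    filter_upwards [neg_ae (φ * (sob m).Γ (e k) w + e k * (sob m).Γ w φ),
      add_ae (φ * (sob m).Γ (e k) w) (e k * (sob m).Γ w φ), mul_ae φ ((sob m).Γ (e k) w),
      mul_ae (e k) ((sob m).Γ w φ), heΓ k w hW, he k, nonneg_iff_ae.1 h0, hC.Γ_nonneg_ae hW]
      with x a1 a2 a3 a4 a5 a6 a7 a8
    rw [a1, a2, a3, a4, a5, a6]
    have : 0 ≤ φ x * (((k : ℝ) + 1) * Real.exp (((k : ℝ) + 1) * w x) * (sob m).Γ w w x) := by positivity
    linarith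
  have iΓ : Integrable (fun x => (sob m).Γ w φ x) m := int_of_mem (hC.Γ_mem1 hW hφ.1)
  have mexp : ∀ k : ℕ, AEStronglyMeasurable (fun x => 1 - Real.exp (((k : ℝ) + 1) * w x)) m := fun k =>
    ((Real.continuous_exp.measurable.comp_aemeasurable
      (w.aemeasurable.const_mul _)).const_sub 1).aestronglyMeasurable
  have iη : ∀ k : ℕ, Integrable (fun x => (1 - Real.exp (((k : ℝ) + 1) * w x)) * (sob m).Γ w φ x) m := by
    intro k
    refine iΓ.bdd_mul (c := 1) (mexp k) ?_
    filter_upwards [hη k] with x hx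
    rw [Real.norm_eq_abs, abs_of_nonneg hx.1]; exact hx.2
  have h1 : ∀ k : ℕ, -∫ x, (1 - Real.exp (((k : ℝ) + 1) * w x)) * (sob m).Γ w φ x ∂m
      ≤ ∫ x in {x | gg p x < δ}, (n - 2 * K / 3 * gg p x) * ((1 - Real.exp (((k : ℝ) + 1) * w x)) * φ x) ∂m := by
    intro k
    have a1 : I ((sob m).Γ w (ψ k)) ≤ ∫ x, (1 - Real.exp (((k : ℝ) + 1) * w x)) * (sob m).Γ w φ x ∂m :=
      integral_mono_ae (int_of_mem (hC.Γ_mem1 hW (hψA k).1)) (iη k) (hΓ k)
    have a2 := hlc k
    have a3 : ∫ x, (n - 2 * K / 3 * gg p x) * ψ k x ∂m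
        = ∫ x in {x | gg p x < δ}, (n - 2 * K / 3 * gg p x) * ((1 - Real.exp (((k : ℝ) + 1) * w x)) * φ x) ∂m := by
      rw [← integral_indicator hD]
      refine integral_congr_ae ?_
      filter_upwards [hψe k, hψz k] with x b1 b2
      by_cases hx : gg p x < δ
      · rw [Set.indicator_of_mem (by exact hx), b1]
      · rw [Set.indicator_of_notMem (by exact hx), b2 (not_lt.1 hx), mul_zero]
    rw [a3] at a2
    linarith
  -- the limits
  have hlim : ∀ᵐ x ∂m, w x < 0 → Tendsto (fun k : ℕ => 1 - Real.exp (((k : ℝ) + 1) * w x)) atTop (𝓝 1) := by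
    refine Eventually.of_forall fun x hx => ?_
    have b1 : Tendsto (fun k : ℕ => ((k : ℝ) + 1) * w x) atTop atBot :=
      Tendsto.atTop_mul_const_of_neg hx (tendsto_atTop_add_const_right _ _ tendsto_natCast_atTop_atTop)
    have b2 := (Real.tendsto_exp_atBot.comp b1).const_sub 1
    simpa using b2
  have l1 : Tendsto (fun k : ℕ => ∫ x, (1 - Real.exp (((k : ℝ) + 1) * w x)) * (sob m).Γ w φ x ∂m) atTop
      (𝓝 (∫ x, (sob m).Γ w φ x ∂m)) := by
    refine tendsto_integral_of_dominated_convergence (fun x => |(sob m).Γ w φ x|)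
      (fun k => (iη k).aestronglyMeasurable) iΓ.abs ?_ ?_
    · intro k
      filter_upwards [hη k] with x hx
      rw [norm_mul, Real.norm_eq_abs, Real.norm_eq_abs, abs_of_nonneg hx.1]
      exact mul_le_of_le_one_left (abs_nonneg _) hx.2
    · filter_upwards [hlim, hwe, H183.Γ_loc0 hC hW hφ.1 0] with x b1 b2 b3
      rcases lt_or_ge (w x) 0 with hx | hx
      · simpa using (b1 hx).mul_const ((sob m).Γ w φ x)
      · have : w x = 0 := le_antisymm (by rw [b2]; linarith [min_le_right (gg p x) δ]) hx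
        rw [b3 this]; simp
  have hfac : Fact (m {x | gg p x < δ} < ∞) := ⟨hDfin⟩
  have iφ : IntegrableOn (fun x => (n - 2 * K / 3 * gg p x) * φ x) {x | gg p x < δ} m := by
    have j1 : IntegrableOn φ {x | gg p x < δ} m := (hφ2.restrict _).integrable (by norm_num)
    refine Integrable.mono' (j1.norm.const_mul (n + |2 * K / 3| * δ))
      ((continuous_const.sub (continuous_const.mul (continuous_gg p))).aestronglyMeasurable.mul
        j1.aestronglyMeasurable) ?_
    filter_upwards [ae_restrict_mem hD] with x hx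
    rw [norm_mul]
    refine mul_le_mul_of_nonneg_right ?_ (norm_nonneg _)
    rw [Real.norm_eq_abs]
    refine (abs_sub _ _).trans ?_
    rw [abs_of_nonneg (Nat.cast_nonneg n), abs_mul, abs_of_nonneg (gg_nonneg p x)]
    have := mul_le_mul_of_nonneg_left (le_of_lt hx : gg p x ≤ δ) (abs_nonneg (2 * K / 3))
    linarith
  have l2 : Tendsto (fun k : ℕ => ∫ x in {x | gg p x < δ}, (n - 2 * K / 3 * gg p x) *
      ((1 - Real.exp (((k : ℝ) + 1) * w x)) * φ x) ∂m) atTop
      (𝓝 (∫ x in {x | gg p x < δ}, (n - 2 * K / 3 * gg p x) * φ x ∂m)) := by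
    have e1 : ∀ (k : ℕ) (x : M), (n - 2 * K / 3 * gg p x) * ((1 - Real.exp (((k : ℝ) + 1) * w x)) * φ x)
        = (1 - Real.exp (((k : ℝ) + 1) * w x)) * ((n - 2 * K / 3 * gg p x) * φ x) := fun k x => by ring
    simp_rw [e1]
    refine tendsto_integral_of_dominated_convergence (fun x => |(n - 2 * K / 3 * gg p x) * φ x|)
      (fun k => ((mexp k).restrict).mul iφ.aestronglyMeasurable) iφ.abs ?_ ?_
    · intro k
      filter_upwards [ae_restrict_of_ae (hη k)] with x hx
      rw [norm_mul, Real.norm_eq_abs, Real.norm_eq_abs, abs_of_nonneg hx.1]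
      exact mul_le_of_le_one_left (abs_nonneg _) hx.2
    · filter_upwards [ae_restrict_of_ae hlim, ae_restrict_of_ae hwe, ae_restrict_mem hD] with x b1 b2 b3
      have : w x < 0 := by rw [b2, min_eq_left (le_of_lt b3)]; exact sub_neg.2 b3
      simpa using (b1 this).mul_const ((n - 2 * K / 3 * gg p x) * φ x)
  exact le_of_tendsto_of_tendsto' l1.neg l2 h1

/-- The hypotheses of the abstract argument hold. -/
theorem lc_of [SecondCountableTopology M] (h : NSp m n K θ) (hδ : 0 < δ) (p : M) :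
    LC (sob m) n K δ (gg p) (cl m (ww δ p)) where
  δ_pos := hδ
  meas := (continuous_gg p).measurable
  nonneg := gg_nonneg p
  fin := lt_of_le_of_lt (measure_mono fun x hx => (gg_lt_iff hδ.le p x).1 hx) (h.fin p √(2 * δ))
  mem := ww_mem h.fin hδ p
  eq := ww_ae hδ p
  grad := ww_grad h hδ p
  lap := fun φ hφ h0 => ww_lap h hδ p hφ h0

end H339

end Vale.Agent.P233.N2
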