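import Vale.Agent.P233.N2.H339.CY2
import Vale.Agent.P233.H866.RDens2

/-!
# The truncated Cheeger–Yau kernel is an approximate identity
-/

set_option linter.all false

open MeasureTheory Filter Topology Set
open scoped ENNReal NNReal InnerProductSpace

universe u

namespace Vale.Agent.P233.N2

namespace H339

open Vale.Agent.P233.H339

open RA

variable {M : Type u} [MetricSpace M] {K δ s T A c : ℝ} {θ : M → ℝ} {n : ℕ}

theorem KH_eq (x y : M) : KH n K c s x y = kg n K (ga n c) s (gg x y) := by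
  rw [gg_comm]; rfl

theorem continuous_gg2 : Continuous fun p : M × M => gg p.1 p.2 := by unfold gg; fun_prop

theorem continuous_kt2 (n : ℕ) (K A δ s : ℝ) : Continuous fun p : M × M => kt n K A δ s (gg p.1 p.2) :=
  (continuous_kt n K A δ s).comp continuous_gg2

theorem kt_supp (hδ : 0 < δ) {x y : M} (h : y ∉ Metric.ball x √(2 * δ)) : kt n K A δ s (gg x y) = 0 := by
  refine kt_eq_zero ?_
  rw [Metric.mem_ball, ← gg_lt_iff hδ.le] at h
  exact not_lt.1 h

theorem kg_tendsto_zero (hA : 0 < A) (hδ : 0 < δ) : Tendsto (fun s => kg n K A s δ) (𝓝[>] 0) (𝓝 0) := by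
  -- `kg ≤ A⁻¹ (n+1)! (4/δ)^(n+1) s`
  have hb := cb_nonneg (n := n) (K := K)
  have h1 : ∀ᶠ s in 𝓝[>] (0 : ℝ), kg n K A s δ ≤ A⁻¹ * ((n + 1).factorial * (4 / δ) ^ (n + 1)) * s := by
    have hev : ∀ᶠ s in 𝓝[>] (0 : ℝ), 0 < s ∧ s ≤ 1 := by
      filter_upwards [self_mem_nhdsWithin, nhdsWithin_le_nhds (eventually_le_nhds
        (zero_lt_one' ℝ))] with s h1 h2
      exact ⟨h1, h2⟩
    filter_upwards [hev] with s hs
    obtain ⟨hs, hs1⟩ := hs
    have h2 : kg n K A s δ ≤ A⁻¹ * s ^ (-((n : ℝ) / 2)) * Real.exp (-(δ / (4 * s))) := by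
      unfold kg
      refine mul_le_mul_of_nonneg_left (Real.exp_le_exp.2 ?_) (by positivity)
      have := mul_le_mul_of_nonneg_right (ca_ge (K := K) hs) hδ.le
      have e : 1 / (4 * s) * δ = δ / (4 * s) := by ring
      rw [e] at this
      have : 0 ≤ cb n K * s := by positivity
      linarith
    have h3 : Real.exp (-(δ / (4 * s))) ≤ (n + 1).factorial * (4 * s / δ) ^ (n + 1) := by
      have h4 := Real.pow_div_factorial_le_exp (x := δ / (4 * s)) (by positivity) (n + 1)
      rw [Real.exp_neg]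
      have h5 : ((n + 1).factorial : ℝ) * (4 * s / δ) ^ (n + 1)
          = ((δ / (4 * s)) ^ (n + 1) / (n + 1).factorial)⁻¹ := by
        rw [inv_div, div_pow, div_pow]
        field_simp
      rw [h5]
      exact inv_anti₀ (by positivity) h4
    have h6 : s ^ (-((n : ℝ) / 2)) * s ^ n ≤ 1 := by
      have e : s ^ (-((n : ℝ) / 2)) * s ^ n = s ^ ((n : ℝ) / 2) := by
        rw [← Real.rpow_natCast, ← Real.rpow_add hs]
        congr 1
        ring
      rw [e]
      exact Real.rpow_le_one hs.le hs1 (by positivity)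
    calc kg n K A s δ ≤ A⁻¹ * s ^ (-((n : ℝ) / 2)) * ((n + 1).factorial * (4 * s / δ) ^ (n + 1)) :=
          h2.trans (mul_le_mul_of_nonneg_left h3 (by positivity))
      _ = A⁻¹ * ((n + 1).factorial * (4 / δ) ^ (n + 1)) * s * (s ^ (-((n : ℝ) / 2)) * s ^ n) := by
          rw [show 4 * s / δ = 4 / δ * s by ring, mul_pow, pow_succ s n]
          ring
      _ ≤ A⁻¹ * ((n + 1).factorial * (4 / δ) ^ (n + 1)) * s * 1 :=
          mul_le_mul_of_nonneg_left h6 (by positivity)
      _ = _ := mul_one _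
  have h2 : Tendsto (fun s => A⁻¹ * ((n + 1).factorial * (4 / δ) ^ (n + 1)) * s) (𝓝[>] 0) (𝓝 0) := by
    have : Continuous fun s : ℝ => A⁻¹ * ((n + 1).factorial * (4 / δ) ^ (n + 1)) * s := by fun_prop
    have := (this.tendsto 0).mono_left (nhdsWithin_le_nhds (s := Set.Ioi 0))
    simpa using this
  refine squeeze_zero' ?_ h1 h2
  filter_upwards [self_mem_nhdsWithin] with s hs
  exact (kg_pos hA hs).le

variable [MeasurableSpace M] [BorelSpace M] {m : Measure M}

theorem int_kt (hfin : ∀ (x : M) (r : ℝ), m (Metric.ball x r) < ∞) (hδ : 0 < δ) (x : M) :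
    Integrable (fun y => kt n K A δ s (gg x y)) m ∧
    ∀ u : M → ℝ, Continuous u → (∃ B : ℝ, ∀ x, |u x| ≤ B) →
      Integrable (fun y => u y * kt n K A δ s (gg x y)) m := by
  have h0 : Integrable (fun y => kt n K A δ s (gg x y)) m := by
    obtain ⟨L, hL⟩ := (isCompact_Icc (a := (0 : ℝ)) (b := δ)).exists_bound_of_continuousOn
      (continuous_kt n K A δ s).continuousOn
    have hfac : Fact (m (Metric.ball x √(2 * δ)) < ∞) := ⟨hfin _ _⟩
    have h1 : Integrable ((Metric.ball x √(2 * δ)).indicator fun _ => L) m :=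
      (integrable_indicator_iff Metric.isOpen_ball.measurableSet).2 (integrable_const _)
    refine h1.mono' ((continuous_kt n K A δ s).comp (continuous_gg x)).aestronglyMeasurable
      (Eventually.of_forall fun y => ?_)
    by_cases hy : y ∈ Metric.ball x √(2 * δ)
    · rw [Set.indicator_of_mem hy]
      exact hL _ ⟨gg_nonneg _ _, ((gg_lt_iff hδ.le _ _).2 hy).le⟩
    · rw [Set.indicator_of_notMem hy, kt_supp hδ hy, norm_zero]
  refine ⟨h0, fun u hu ⟨B, hB⟩ => ?_⟩
  exact h0.bdd_mul (c := B) hu.aestronglyMeasurable (Eventually.of_forall hB)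

/-- the mass of the kernel near a density point -/
theorem mass_lim (h : NSp m n K θ) (hc0 : 0 < c) (hδ : 0 < δ) {x : M}
    (hx : Tendsto (fun r : ℝ => (m (Metric.ball x r)).toReal / r ^ n) (𝓝[>] 0) (𝓝 c)) :
    Tendsto (fun s => ∫ y, kt n K (ga n c) δ s (gg x y) ∂m) (𝓝[>] 0) (𝓝 1) := by
  have hη : 0 < √(2 * δ) := Real.sqrt_pos.2 (by linarith)
  have h1 := H866.asy0 (K := K) hη (h.fin x _) hc0 hx
  have h2 := (kg_tendsto_zero (n := n) (K := K) (H866.ga_pos (n := n) hc0) hδ).mul_const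
    (m.real (Metric.ball x √(2 * δ)))
  rw [zero_mul] at h2
  have h3 := h1.sub h2
  rw [sub_zero] at h3
  refine h3.congr' ?_
  filter_upwards [self_mem_nhdsWithin] with s hs
  have hfac : Fact (m (Metric.ball x √(2 * δ)) < ∞) := ⟨h.fin _ _⟩
  have e1 : ∫ y in Metric.ball x √(2 * δ), kg n K (ga n c) s δ ∂m
      = kg n K (ga n c) s δ * m.real (Metric.ball x √(2 * δ)) := by
    rw [setIntegral_const, smul_eq_mul, mul_comm]
  have i1 : IntegrableOn (fun y => KH n K c s x y) (Metric.ball x √(2 * δ)) m := by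
    have := H866.int_radial (h.fin x √(2 * δ)) (f := fun r => kg n K (ga n c) s (r ^ 2 / 2)) (by
      unfold kg; fun_prop)
    exact this
  rw [← e1, ← integral_sub i1 (integrable_const _), ← integral_indicator Metric.isOpen_ball.measurableSet]
  refine integral_congr_ae (Eventually.of_forall fun y => ?_)
  simp only
  by_cases hy : y ∈ Metric.ball x √(2 * δ)
  · rw [Set.indicator_of_mem hy, KH_eq, kt, min_eq_left ((gg_lt_iff hδ.le _ _).2 hy).le]
  · rw [Set.indicator_of_notMem hy, kt_supp hδ hy]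

/-- pointwise convergence at density points -/
theorem U_lim (h : NSp m n K θ) (hc0 : 0 < c) (hδ : 0 < δ) {x : M}
    (hx : Tendsto (fun r : ℝ => (m (Metric.ball x r)).toReal / r ^ n) (𝓝[>] 0) (𝓝 c))
    {u : M → ℝ} (hu : Continuous u) {B : ℝ} (hB : ∀ x, |u x| ≤ B) :
    Tendsto (fun s => ∫ y, u y * kt n K (ga n c) δ s (gg x y) ∂m) (𝓝[>] 0) (𝓝 (u x)) := by
  have hA := H866.ga_pos (n := n) hc0
  have hη : 0 < √(2 * δ) := Real.sqrt_pos.2 (by linarith)
  have hB0 : 0 ≤ B := (abs_nonneg _).trans (hB x)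
  have m1 := mass_lim h hc0 hδ hx
  rw [Metric.tendsto_nhds]
  intro ε hε
  obtain ⟨η₁, hη₁, hc⟩ := Metric.continuous_iff.1 hu x (ε / 4) (by linarith)
  set η₂ := min η₁ √(2 * δ) with hη₂
  have hη₂0 : 0 < η₂ := lt_min hη₁ hη
  have a1 := H866.asy0 (K := K) hη (h.fin x _) hc0 hx
  have a2 := H866.asy0 (K := K) hη₂0 (h.fin x _) hc0 hx
  have a3 := (a1.sub a2).const_mul (2 * B)
  rw [sub_self, mul_zero] at a3
  have a4 := (m1.sub_const 1).const_mul (u x)
  rw [sub_self, mul_zero] at a4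
  have b1 := (tendsto_order.1 m1).2 2 (by norm_num)
  have b2 := (tendsto_order.1 a3).2 (ε / 4) (by linarith)
  have b3 := (Metric.tendsto_nhds.1 a4) (ε / 4) (by linarith)
  filter_upwards [self_mem_nhdsWithin, b1, b2, b3] with s hs c1 c2 c3
  have hs0 : 0 < s := hs
  obtain ⟨i0, i1⟩ := int_kt (n := n) (K := K) (A := ga n c) (s := s) h.fin hδ x
  have i2 := i1 u hu ⟨B, hB⟩
  have j1 : IntegrableOn (fun y => KH n K c s x y) (Metric.ball x √(2 * δ)) m :=
    H866.int_radial (h.fin x √(2 * δ)) (f := fun r => kg n K (ga n c) s (r ^ 2 / 2)) (by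
      unfold kg; fun_prop)
  have j2 : IntegrableOn (fun y => KH n K c s x y) (Metric.ball x η₂) m :=
    j1.mono_set (Metric.ball_subset_ball (min_le_right _ _))
  have e1 : ∫ y, u y * kt n K (ga n c) δ s (gg x y) ∂m - u x
      = ∫ y, (u y - u x) * kt n K (ga n c) δ s (gg x y) ∂m
        + u x * (∫ y, kt n K (ga n c) δ s (gg x y) ∂m - 1) := by
    have : ∫ y, (u y - u x) * kt n K (ga n c) δ s (gg x y) ∂m
        = ∫ y, u y * kt n K (ga n c) δ s (gg x y) ∂m - u x * ∫ y, kt n K (ga n c) δ s (gg x y) ∂m := by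
      rw [← integral_const_mul, ← integral_sub i2 (i0.const_mul _)]
      refine integral_congr_ae (Eventually.of_forall fun y => ?_)
      simp only; ring
    rw [this]; ring
  have e2 : |∫ y, (u y - u x) * kt n K (ga n c) δ s (gg x y) ∂m|
      ≤ ε / 4 * ∫ y, kt n K (ga n c) δ s (gg x y) ∂m
        + 2 * B * (∫ y in Metric.ball x √(2 * δ), KH n K c s x y ∂m - ∫ y in Metric.ball x η₂, KH n K c s x y ∂m) := by
    have hk0 : ∀ y, 0 ≤ kt n K (ga n c) δ s (gg x y) := fun y => kt_nonneg hA hs0 _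
    have hKH0 : ∀ y, 0 ≤ KH n K c s x y := fun y => by rw [KH_eq]; exact (kg_pos hA hs0).le
    rw [← integral_const_mul, ← integral_indicator Metric.isOpen_ball.measurableSet,
      ← integral_indicator (Metric.isOpen_ball (x := x) (ε := η₂)).measurableSet]
    have k1 := (integrable_indicator_iff (Metric.isOpen_ball (x := x) (ε := √(2 * δ))).measurableSet).2 j1
    have k2 := (integrable_indicator_iff (Metric.isOpen_ball (x := x) (ε := η₂)).measurableSet).2 j2
    have k3 : Integrable (fun y => ε / 4 * kt n K (ga n c) δ s (gg x y)) m := i0.const_mul _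
    have k4 : Integrable (fun y => 2 * B * ((Metric.ball x √(2 * δ)).indicator (fun y => KH n K c s x y) y
      - (Metric.ball x η₂).indicator (fun y => KH n K c s x y) y)) m := (k1.sub k2).const_mul _
    rw [← integral_sub k1 k2, ← integral_const_mul, ← integral_add k3 k4, ← Real.norm_eq_abs]
    refine norm_integral_le_of_norm_le (k3.add k4) (Eventually.of_forall fun y => ?_)
    rw [norm_mul, Real.norm_eq_abs, Real.norm_eq_abs, abs_of_nonneg (hk0 y)]
    by_cases hy : y ∈ Metric.ball x √(2 * δ)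
    · by_cases hy2 : y ∈ Metric.ball x η₂
      · rw [Set.indicator_of_mem hy, Set.indicator_of_mem hy2, sub_self, mul_zero, add_zero]
        refine mul_le_mul_of_nonneg_right ?_ (hk0 y)
        have := hc y (lt_of_lt_of_le hy2 (min_le_left _ _))
        rw [Real.dist_eq] at this
        exact this.le
      · rw [Set.indicator_of_mem hy, Set.indicator_of_notMem hy2, sub_zero]
        have h1 : |u y - u x| ≤ 2 * B := (abs_sub _ _).trans (by linarith [hB x, hB y])
        have h2 : kt n K (ga n c) δ s (gg x y) ≤ KH n K c s x y := by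
          rw [KH_eq]
          have := kt_le (n := n) (K := K) (δ := δ) hA hs0 (gg x y)
          rwa [min_eq_left ((gg_lt_iff hδ.le _ _).2 hy).le] at this
        have h3 : |u y - u x| * kt n K (ga n c) δ s (gg x y) ≤ 2 * B * KH n K c s x y :=
          mul_le_mul h1 h2 (hk0 y) (by positivity)
        have h4 : 0 ≤ ε / 4 * kt n K (ga n c) δ s (gg x y) := mul_nonneg (by linarith) (hk0 y)
        linarith
    · have hy2 : y ∉ Metric.ball x η₂ := fun h9 => hy (Metric.ball_subset_ball (min_le_right _ _) h9)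
      rw [Set.indicator_of_notMem hy, Set.indicator_of_notMem hy2, kt_supp hδ hy]
      simp
  rw [Real.dist_eq, e1]
  rw [Real.dist_eq, sub_zero] at c3
  refine (abs_add_le _ _).trans_lt ?_
  have : ε / 4 * ∫ y, kt n K (ga n c) δ s (gg x y) ∂m ≤ ε / 4 * 2 :=
    mul_le_mul_of_nonneg_left c1.le (by linarith)
  linarith

/-- uniform bound of the volumes -/
theorem vol_bound (h : NSp m n K θ) (x₀ : M) (R η : ℝ) : ∃ c : ℝ, 0 ≤ c ∧ ∀ x ∈ Metric.ball x₀ R,
    ∀ r, 0 < r → r ≤ η → m.real (Metric.ball x r) ≤ c * r ^ n := by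
  obtain ⟨c, hc⟩ := h.upper x₀ R
  refine ⟨|c| + m.real (Metric.ball x₀ (R + η)), by positivity, fun x hx r hr hrη => ?_⟩
  rcases le_total r 1 with h1 | h1
  · have h2 := hc x hx r hr h1
    have h3 : m.real (Metric.ball x r) ≤ |c| * r ^ n := by
      refine ENNReal.toReal_le_of_le_ofReal (by positivity) (h2.trans (ENNReal.ofReal_le_ofReal ?_))
      exact mul_le_mul_of_nonneg_right (le_abs_self c) (by positivity)
    refine h3.trans (mul_le_mul_of_nonneg_right ?_ (by positivity))
    linarith [measureReal_nonneg (μ := m) (s := Metric.ball x₀ (R + η))]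
  · have h2 : m.real (Metric.ball x r) ≤ m.real (Metric.ball x₀ (R + η)) := by
      refine measureReal_mono (fun y hy => ?_) (h.fin _ _).ne
      rw [Metric.mem_ball] at hy hx ⊢
      linarith [dist_triangle y x x₀]
    refine h2.trans ?_
    have h3 : 1 ≤ r ^ n := one_le_pow₀ h1
    have h4 : m.real (Metric.ball x₀ (R + η)) ≤ |c| + m.real (Metric.ball x₀ (R + η)) := by
      linarith [abs_nonneg c]
    exact h4.trans (le_mul_of_one_le_right (by positivity) h3)

/-- **uniform bound of the mass of the kernel** -/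
theorem mass_bound (h : NSp m n K θ) {a : ℝ} (ha0 : 0 < a) (hδ : 0 < δ) (x₀ : M) (R : ℝ) : ∃ B : ℝ, 0 ≤ B ∧ ∀ s, 0 < s → s ≤ 1 →
    ∀ x ∈ Metric.ball x₀ R, ∫ y, kt n K (ga n a) δ s (gg x y) ∂m ≤ B := by
  set η := √(2 * δ) with hηdef
  have hη : 0 < η := Real.sqrt_pos.2 (by linarith)
  have hA := H866.ga_pos (n := n) ha0
  obtain ⟨c, hc0, hc⟩ := vol_bound h x₀ R η
  have hn : (0 : ℝ) ≤ (n : ℝ) / 2 := by positivity
  obtain ⟨i1, -⟩ := H866.prof_int 0 hn
  set G : ℝ := ∫ v in Ioi (0 : ℝ), v ^ 0 * Real.exp (-v) * (2 * v) ^ ((n : ℝ) / 2) with hG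
  have hG0 : 0 ≤ G := setIntegral_nonneg measurableSet_Ioi fun v hv => by
    have : (0 : ℝ) < v := hv
    positivity
  set B1 : ℝ := 2 ^ n * n.factorial * Real.exp (1 / 2) with hB1
  refine ⟨(ga n a)⁻¹ * 4 ^ ((n : ℝ) / 2) * (c * (B1 + G)), by positivity, fun s hs hs1 x hx => ?_⟩
  have hfac : Fact (m (Metric.ball x η) < ∞) := ⟨h.fin _ _⟩
  have h4s : 0 < 4 * s := by positivity
  -- reduction to a Gaussian on a ball
  have e1 : ∫ y, kt n K (ga n a) δ s (gg x y) ∂m
      ≤ (ga n a)⁻¹ * s ^ (-((n : ℝ) / 2)) * ∫ y in Metric.ball x η, Real.exp (-(dist x y ^ 2 / (2 * (4 * s)))) ∂m := by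
    rw [← integral_const_mul, ← integral_indicator Metric.isOpen_ball.measurableSet]
    have j1 : IntegrableOn (fun y => (ga n a)⁻¹ * s ^ (-((n : ℝ) / 2)) *
        Real.exp (-(dist x y ^ 2 / (2 * (4 * s))))) (Metric.ball x η) m :=
      H866.int_radial (h.fin x η) (f := fun r => (ga n a)⁻¹ * s ^ (-((n : ℝ) / 2)) *
        Real.exp (-(r ^ 2 / (2 * (4 * s))))) (by fun_prop)
    refine integral_mono (int_kt h.fin hδ x).1
      ((integrable_indicator_iff Metric.isOpen_ball.measurableSet).2 j1) fun y => ?_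
    by_cases hy : y ∈ Metric.ball x η
    · rw [Set.indicator_of_mem hy]
      refine (kt_le hA hs _).trans ?_
      rw [min_eq_left ((gg_lt_iff hδ.le _ _).2 hy).le]
      unfold kg
      refine mul_le_mul_of_nonneg_left (Real.exp_le_exp.2 ?_) (by positivity)
      have := mul_le_mul_of_nonneg_right (ca_ge (K := K) hs) (gg_nonneg x y)
      have e : 1 / (4 * s) * gg x y = dist x y ^ 2 / (2 * (4 * s)) := by
        unfold gg; rw [dist_comm]; field_simp
      rw [e] at this
      have : 0 ≤ cb n K * s := mul_nonneg cb_nonneg hs.le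
      linarith
    · rw [Set.indicator_of_notMem hy, kt_supp hδ hy]
  refine e1.trans ?_
  have e2 := H866.layer (h := fun v => Real.exp (-v)) (h' := fun v => -Real.exp (-v)) hη h4s (h.fin x η)
    (by fun_prop) (fun v => by simpa using (hasDerivAt_neg v).exp)
  rw [e2]
  set V := η ^ 2 / (2 * (4 * s)) with hV
  have hV0 : 0 < V := by positivity
  have hroot : √(2 * (4 * s) * V) = η := by
    rw [hV, mul_div_cancel₀ _ (by positivity), Real.sqrt_sq hη.le]
  have e3 : m.real (Metric.ball x η) ≤ c * ((4 * s) ^ ((n : ℝ) / 2) * (2 * V) ^ ((n : ℝ) / 2)) := by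
    rw [← H866.sqrt_pow_eq h4s hV0, hroot]
    exact hc x hx η hη le_rfl
  have e4 : Real.exp (-V) * (2 * V) ^ ((n : ℝ) / 2) ≤ B1 := by
    have h1 : (2 * V) ^ ((n : ℝ) / 2) ≤ (1 + 2 * V) ^ n := by
      have : (2 * V) ^ ((n : ℝ) / 2) ≤ (1 + 2 * V) ^ ((n : ℝ) / 2) :=
        Real.rpow_le_rpow (by positivity) (by linarith) hn
      refine this.trans ?_
      rw [← Real.rpow_natCast]
      exact Real.rpow_le_rpow_of_exponent_le (by linarith) (by linarith [show (0 : ℝ) ≤ n by positivity])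
    have h2 := Real.pow_div_factorial_le_exp (x := 1 / 2 + V) (by positivity) n
    rw [div_le_iff₀ (by positivity)] at h2
    have h3 : (1 + 2 * V) ^ n = 2 ^ n * (1 / 2 + V) ^ n := by rw [← mul_pow]; congr 1; ring
    calc Real.exp (-V) * (2 * V) ^ ((n : ℝ) / 2)
        ≤ Real.exp (-V) * (2 ^ n * (Real.exp (1 / 2 + V) * n.factorial)) := by
          refine mul_le_mul_of_nonneg_left (h1.trans ?_) (Real.exp_pos _).le
          rw [h3]
          exact mul_le_mul_of_nonneg_left h2 (by positivity)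
      _ = B1 := by
          rw [hB1, Real.exp_add, Real.exp_neg]
          field_simp
  have hmm : Measurable fun v : ℝ => m.real (Metric.ball x √(2 * (4 * s) * v)) := by
    have hmono : Monotone fun r : ℝ => m (Metric.ball x r) := fun a b hab =>
      measure_mono (Metric.ball_subset_ball hab)
    exact hmono.measurable.ennreal_toReal.comp (by fun_prop)
  have e5 : -∫ v in Ioc 0 V, -Real.exp (-v) * m.real (Metric.ball x √(2 * (4 * s) * v))
      ≤ c * (4 * s) ^ ((n : ℝ) / 2) * G := by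
    rw [← integral_neg]
    have i2 : IntegrableOn (fun v : ℝ => c * (4 * s) ^ ((n : ℝ) / 2) *
        (v ^ 0 * Real.exp (-v) * (2 * v) ^ ((n : ℝ) / 2))) (Ioi 0) := i1.const_mul _
    have b1 : ∀ v ∈ Ioc 0 V, -(-Real.exp (-v) * m.real (Metric.ball x √(2 * (4 * s) * v)))
        ≤ c * (4 * s) ^ ((n : ℝ) / 2) * (v ^ 0 * Real.exp (-v) * (2 * v) ^ ((n : ℝ) / 2)) := by
      intro v hv
      have hr : √(2 * (4 * s) * v) ≤ η := H866.sqrt_mul_two_lt h4s hη hv.2
      have hr0 : 0 < √(2 * (4 * s) * v) := Real.sqrt_pos.2 (by have := hv.1; positivity)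
      have h1 := hc x hx _ hr0 hr
      rw [H866.sqrt_pow_eq h4s hv.1] at h1
      have h2 := mul_le_mul_of_nonneg_left h1 (Real.exp_pos (-v)).le
      rw [pow_zero, one_mul]
      linarith
    have i3 : IntegrableOn (fun v => -(-Real.exp (-v) * m.real (Metric.ball x √(2 * (4 * s) * v)))) (Ioc 0 V) := by
      refine (i2.mono_set Ioc_subset_Ioi_self).mono' ?_ ?_
      · exact (((Real.continuous_exp.comp continuous_neg).measurable.neg.mul hmm).neg).aestronglyMeasurable
      · filter_upwards [ae_restrict_mem measurableSet_Ioc] with v hv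
        rw [Real.norm_eq_abs, abs_of_nonneg]
        · exact b1 v hv
        · rw [neg_mul, neg_neg]; positivity
    refine (setIntegral_mono_on i3 (i2.mono_set Ioc_subset_Ioi_self) measurableSet_Ioc b1).trans ?_
    refine (setIntegral_mono_set i2 ?_ (Ioc_subset_Ioi_self.eventuallyLE)).trans ?_
    · filter_upwards [ae_restrict_mem measurableSet_Ioi] with v hv
      have : (0 : ℝ) < v := hv
      simp only [Pi.zero_apply]
      positivity
    · rw [integral_const_mul]
  have e6 : s ^ (-((n : ℝ) / 2)) * (4 * s) ^ ((n : ℝ) / 2) = 4 ^ ((n : ℝ) / 2) := by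
    rw [Real.mul_rpow (by norm_num) hs.le, Real.rpow_neg hs.le]
    have : s ^ ((n : ℝ) / 2) ≠ 0 := (Real.rpow_pos_of_pos hs _).ne'
    field_simp
  have e7 : Real.exp (-V) * m.real (Metric.ball x η) ≤ c * (4 * s) ^ ((n : ℝ) / 2) * B1 := by
    have h1 := mul_le_mul_of_nonneg_left e3 (Real.exp_pos (-V)).le
    have h2 := mul_le_mul_of_nonneg_left e4 (show 0 ≤ c * (4 * s) ^ ((n : ℝ) / 2) by positivity)
    linarith
  calc (ga n a)⁻¹ * s ^ (-((n : ℝ) / 2)) * (Real.exp (-V) * m.real (Metric.ball x η)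
        - ∫ v in Ioc 0 V, -Real.exp (-v) * m.real (Metric.ball x √(2 * (4 * s) * v)))
      ≤ (ga n a)⁻¹ * s ^ (-((n : ℝ) / 2)) * (c * (4 * s) ^ ((n : ℝ) / 2) * B1 + c * (4 * s) ^ ((n : ℝ) / 2) * G) :=
        mul_le_mul_of_nonneg_left (by linarith) (by positivity)
    _ = (ga n a)⁻¹ * (s ^ (-((n : ℝ) / 2)) * (4 * s) ^ ((n : ℝ) / 2)) * (c * (B1 + G)) := by ring
    _ = _ := by rw [e6]

end H339

end Vale.Agent.P233.N2
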